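import Mathlib

/-! # The `d`-regular tree exists (helper12)

Vertices: the words in the alphabet `Fin d` without two equal consecutive letters; a word is
joined to the words obtained by adding a letter in front. -/

namespace Vale.Agent.P161S

/-- reduced words -/
def W (d : ℕ) : Type := {l : List (Fin d) // l.IsChain (· ≠ ·)}

/-- one word is obtained from the other by adding a letter -/
def TG (d : ℕ) : SimpleGraph (W d) where
  Adj a b := (∃ x, b.1 = x :: a.1) ∨ (∃ x, a.1 = x :: b.1)
  symm := ⟨fun a b h => h.symm⟩
  loopless := ⟨by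
    rintro a (⟨x, h⟩ | ⟨x, h⟩)
    · simpa using congrArg List.length h
    · simpa using congrArg List.length h⟩

variable {d : ℕ}

/-- the neighbour number `x` -/
def nb (a : W d) (x : Fin d) : W d :=
  match a with
  | ⟨[], _⟩ => ⟨[x], List.isChain_singleton x⟩
  | ⟨b :: l, h⟩ => if hx : x = b then ⟨l, h.tail⟩ else
      ⟨x :: b :: l, by rw [List.isChain_cons_cons]; exact ⟨hx, h⟩⟩

theorem nb_adj (a : W d) (x : Fin d) : (TG d).Adj a (nb a x) := by
  rcases a with ⟨_ | ⟨b, l⟩, h⟩
  · exact Or.inl ⟨x, rfl⟩
  · by_cases hx : x = b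
    · refine Or.inr ⟨b, ?_⟩
      show b :: l = b :: (nb ⟨b :: l, h⟩ x).1
      unfold nb
      simp [hx]
    · refine Or.inl ⟨x, ?_⟩
      unfold nb
      simp [hx]

theorem nb_val (b : Fin d) (l : List (Fin d)) (h : (b :: l).IsChain (· ≠ ·)) (x : Fin d) :
    (nb ⟨b :: l, h⟩ x).1 = if x = b then l else x :: b :: l := by
  unfold nb
  by_cases hx : x = b
  · simp [hx]
  · simp [hx]

theorem nb_inj (a : W d) : Function.Injective (nb a) := by
  intro x y hxy
  rcases a with ⟨_ | ⟨b, l⟩, h⟩
  · have := congrArg Subtype.val hxy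
    simpa [nb] using this
  · have h1 := congrArg Subtype.val hxy
    rw [nb_val, nb_val] at h1
    by_cases hx : x = b <;> by_cases hy : y = b
    · rw [hx, hy]
    · exfalso
      rw [if_pos hx, if_neg hy] at h1
      have := congrArg List.length h1
      simp at this
      omega
    · exfalso
      rw [if_neg hx, if_pos hy] at h1
      have := congrArg List.length h1
      simp only [List.length_cons] at this
      omega
    · rw [if_neg hx, if_neg hy] at h1
      simpa using h1

theorem nb_surj (a b : W d) (hab : (TG d).Adj a b) : ∃ x, nb a x = b := by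
  rcases hab with ⟨x, h⟩ | ⟨x, h⟩
  · refine ⟨x, Subtype.ext ?_⟩
    rcases a with ⟨_ | ⟨c, l⟩, ha⟩
    · rw [h]
      rfl
    · have hb : b.1.IsChain (· ≠ ·) := b.2
      rw [h] at hb
      have hxc : x ≠ c := (List.isChain_cons_cons.1 hb).1
      rw [h]
      unfold nb
      simp [hxc]
  · refine ⟨x, Subtype.ext ?_⟩
    rcases a with ⟨l, ha⟩
    have h' : l = x :: b.1 := h
    subst h'
    unfold nb
    simp

/-- the neighbours are numbered by `Fin d` -/
theorem nb_bij (a : W d) :
    Function.Bijective (fun x => (⟨nb a x, nb_adj a x⟩ : (TG d).neighborSet a)) := by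
  constructor
  · intro x y h
    exact nb_inj a (congrArg Subtype.val h)
  · rintro ⟨b, hb⟩
    obtain ⟨x, hx⟩ := nb_surj a b hb
    exact ⟨x, Subtype.ext hx⟩

noncomputable instance : (TG d).LocallyFinite := fun a =>
  Fintype.ofBijective _ (nb_bij a)

theorem regular : (TG d).IsRegularOfDegree d := by
  intro a
  rw [← SimpleGraph.card_neighborSet_eq_degree, ← Fintype.card_of_bijective (nb_bij a),
    Fintype.card_fin]

theorem reach_nil (l : List (Fin d)) : ∀ h : l.IsChain (· ≠ ·),
    (TG d).Reachable ⟨l, h⟩ ⟨[], List.isChain_nil⟩ := by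
  induction l with
  | nil => exact fun h => SimpleGraph.Reachable.refl _
  | cons x l ih =>
    intro h
    have h1 : (TG d).Adj ⟨x :: l, h⟩ ⟨l, h.tail⟩ := Or.inr ⟨x, rfl⟩
    exact h1.reachable.trans (ih h.tail)

theorem connected : (TG d).Connected := by
  have : Nonempty (W d) := ⟨⟨[], List.isChain_nil⟩⟩
  refine ⟨fun a b => ?_⟩
  exact (reach_nil a.1 a.2).trans (reach_nil b.1 b.2).symm

/-- the edge between `b` and `x :: b` is a bridge: below it everything ends with `x :: b` -/
theorem bridge (a b : W d) (x : Fin d) (h : a.1 = x :: b.1) : (TG d).IsBridge s(a, b) := by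
  rw [SimpleGraph.isBridge_iff]
  rintro ⟨p⟩
  have key : ∀ (u v : W d) (q : ((TG d).deleteEdges {s(a, b)}).Walk u v),
      a.1 <:+ u.1 → a.1 <:+ v.1 := by
    intro u v q
    induction q with
    | nil => exact id
    | @cons u w v huw _ ih =>
      intro hu
      apply ih
      rw [SimpleGraph.deleteEdges_adj] at huw
      obtain ⟨hadj, hne⟩ := huw
      rcases hadj with ⟨y, hy⟩ | ⟨y, hy⟩
      · rw [hy]
        exact hu.trans (List.suffix_cons y u.1)
      · rw [hy] at hu
        rcases List.suffix_cons_iff.1 hu with h1 | h1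
        · exfalso
          apply hne
          have hua : u = a := Subtype.ext (hy.trans h1.symm)
          have hwb : w = b := by
            rw [h] at h1
            injection h1 with _ h2
            exact Subtype.ext h2.symm
          rw [hua, hwb]
          rfl
        · exact h1
  have h1 := key a b p List.suffix_rfl
  have h2 := h1.length_le
  rw [h, List.length_cons] at h2
  omega

theorem isTree : (TG d).IsTree := by
  refine ⟨connected, ?_⟩
  rw [SimpleGraph.isAcyclic_iff_forall_adj_isBridge]
  rintro a b (⟨x, h⟩ | ⟨x, h⟩)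
  · rw [Sym2.eq_swap]
    exact bridge b a x h
  · exact bridge a b x h

theorem exists_tree (d : ℕ) : ∃ (V : Type) (G : SimpleGraph V) (_ : G.LocallyFinite),
    G.IsTree ∧ G.IsRegularOfDegree d :=
  ⟨W d, TG d, inferInstance, isTree, regular⟩

end Vale.Agent.P161S
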