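import Vale.Agent.P161C.Assembly
import Vale.Agent.P161C.Main
import Vale.Agent.P161S.Tree

/-! # The set of `β` for which the free Ising state is a factor of IID (helper12) -/

open MeasureTheory P161

namespace Vale.Agent.P161S

universe u

theorem thr {V : Type u} (G : SimpleGraph V) [G.LocallyFinite] (hG : G.IsTree)
    (d : ℕ) (hd : 3 ≤ d) (hreg : G.IsRegularOfDegree d) (β : ℝ) (hβ : 0 ≤ β) :
    (∃! μ : Measure (V → Bool), IsFreeIsing G (Real.tanh β) μ) ∧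
      ∀ μ : Measure (V → Bool), IsFreeIsing G (Real.tanh β) μ →
        (IsFactorOfIID G μ ↔ Real.tanh β ≤ 1 / Real.sqrt ((d : ℝ) - 1)) := by
  have : Countable V := countable_of_connected hG.connected
  have hd3 : (3 : ℝ) ≤ d := by exact_mod_cast hd
  have hθ0 : 0 ≤ Real.tanh β := by
    rw [Real.tanh_eq_sinh_div_cosh]
    exact div_nonneg (Real.sinh_nonneg_iff.2 hβ) (Real.cosh_pos β).le
  have hθ1 : Real.tanh β ≤ 1 := (Real.tanh_lt_one β).le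
  have hs : 0 < Real.sqrt ((d : ℝ) - 1) := Real.sqrt_pos.2 (by linarith)
  have hs2 : Real.sqrt ((d : ℝ) - 1) ^ 2 = (d : ℝ) - 1 := Real.sq_sqrt (by linarith)
  obtain ⟨μ, hμ⟩ := exists_isFreeIsing hG hθ0 hθ1
  refine ⟨⟨μ, hμ, fun μ' hμ' => hμ'.unique hG.connected hμ⟩, fun μ' hμ' => ?_⟩
  obtain ⟨D, rfl⟩ : ∃ D, d = D + 1 := ⟨d - 1, by omega⟩
  have hE : P161C.Env G D := ⟨hG, hreg, by omega⟩
  have hD : ((D + 1 : ℕ) : ℝ) - 1 = D := by push_cast; ring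
  rw [hD] at hs hs2 ⊢
  constructor
  · intro hf
    by_contra hlt
    rw [not_le, div_lt_iff₀ hs] at hlt
    refine P161C.Above.not_factor hE hμ' hθ0 ?_ hf
    rw [← hs2, ← mul_pow]
    exact one_lt_pow₀ hlt (by norm_num)
  · intro hle
    rcases hle.eq_or_lt with heq | hlt
    · have : P161C.thc D = Real.tanh β := by
        unfold P161C.thc
        exact heq.symm
      rw [← this] at hμ'
      exact P161C.a_fin (P161C.main_proof P161C.msg_proof P161C.shp_proof) V G D hE μ' hμ'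
    · refine isFactorOfIID hG hd hreg hθ0 ?_ hμ'
      rw [lt_div_iff₀ hs] at hlt
      rw [hD, ← hs2, ← mul_pow]
      exact pow_lt_one₀ (mul_nonneg hθ0 hs.le) hlt (by norm_num)

theorem tanh_le_iff {d : ℕ} (hd : 3 ≤ d) (β : ℝ) :
    Real.tanh β ≤ 1 / Real.sqrt ((d : ℝ) - 1) ↔
      β ≤ Real.artanh (1 / Real.sqrt ((d : ℝ) - 1)) := by
  have hd3 : (3 : ℝ) ≤ d := by exact_mod_cast hd
  have hs : 1 < Real.sqrt ((d : ℝ) - 1) := Real.lt_sqrt_of_sq_lt (by linarith)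
  have h0 : 0 < 1 / Real.sqrt ((d : ℝ) - 1) := by positivity
  have h1 : 1 / Real.sqrt ((d : ℝ) - 1) < 1 := by
    rw [div_lt_one (by linarith)]
    exact hs
  have h2 := Real.artanh_le_artanh_iff (x := Real.tanh β) (y := 1 / Real.sqrt ((d : ℝ) - 1))
    ⟨Real.neg_one_lt_tanh β, Real.tanh_lt_one β⟩ ⟨by linarith, h1⟩
  rw [Real.artanh_tanh] at h2
  exact h2.symm

theorem crit_eq {d : ℕ} (hd : 3 ≤ d) :
    Real.artanh (1 / Real.sqrt ((d : ℝ) - 1)) =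
      (1 / 2) * Real.log ((Real.sqrt ((d : ℝ) - 1) + 1) / (Real.sqrt ((d : ℝ) - 1) - 1)) := by
  have hd3 : (3 : ℝ) ≤ d := by exact_mod_cast hd
  have hs : 1 < Real.sqrt ((d : ℝ) - 1) := Real.lt_sqrt_of_sq_lt (by linarith)
  set s := Real.sqrt ((d : ℝ) - 1)
  have h1 : 1 / s ≤ 1 := by
    rw [div_le_one (by linarith)]
    exact hs.le
  have h0 : 0 < 1 / s := by positivity
  rw [Real.artanh_eq_half_log ⟨by linarith, h1⟩]
  congr 2
  have hs0 : s ≠ 0 := by positivity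
  have hs1 : s - 1 ≠ 0 := by linarith
  field_simp

theorem main (d : ℕ) (hd : 3 ≤ d) :
    (∃ (V : Type) (G : SimpleGraph V) (_ : G.LocallyFinite), G.IsTree ∧ G.IsRegularOfDegree d) ∧
    (∀ (V : Type u) (G : SimpleGraph V) [G.LocallyFinite], G.IsTree → G.IsRegularOfDegree d →
      ∃ μ : ℝ → Measure (V → Bool),
        (∀ β : ℝ, 0 ≤ β → ∀ ν : Measure (V → Bool), IsFreeIsing G (Real.tanh β) ν ↔ ν = μ β) ∧
        {β : ℝ | 0 ≤ β ∧ IsFactorOfIID G (μ β)} =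
          Set.Icc 0 (Real.artanh (1 / Real.sqrt ((d : ℝ) - 1)))) ∧
    Real.artanh (1 / Real.sqrt ((d : ℝ) - 1)) =
      (1 / 2) * Real.log ((Real.sqrt ((d : ℝ) - 1) + 1) / (Real.sqrt ((d : ℝ) - 1) - 1)) := by
  refine ⟨exists_tree d, ?_, crit_eq hd⟩
  intro V G _ hG hreg
  have h : ∀ β : {β : ℝ // 0 ≤ β}, ∃ μ : Measure (V → Bool),
      IsFreeIsing G (Real.tanh β.1) μ ∧ ∀ ν, IsFreeIsing G (Real.tanh β.1) ν → ν = μ := by
    intro β
    obtain ⟨μ, h1, h2⟩ := (thr G hG d hd hreg β.1 β.2).1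
    exact ⟨μ, h1, h2⟩
  choose m hm1 hm2 using h
  classical
  refine ⟨fun β => if h : 0 ≤ β then m ⟨β, h⟩ else 0, ?_, ?_⟩
  · intro β hβ ν
    show IsFreeIsing G (Real.tanh β) ν ↔ ν = (if h : 0 ≤ β then m ⟨β, h⟩ else 0)
    rw [dif_pos hβ]
    constructor
    · exact hm2 ⟨β, hβ⟩ ν
    · rintro rfl
      exact hm1 ⟨β, hβ⟩
  · ext β
    simp only [Set.mem_ofPred_eq, Set.mem_Icc]
    constructor
    · rintro ⟨hβ, hf⟩
      rw [dif_pos hβ] at hf
      exact ⟨hβ, (tanh_le_iff hd β).1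
        (((thr G hG d hd hreg β hβ).2 _ (hm1 ⟨β, hβ⟩)).1 hf)⟩
    · rintro ⟨hβ, hle⟩
      refine ⟨hβ, ?_⟩
      rw [dif_pos hβ]
      exact ((thr G hG d hd hreg β hβ).2 _ (hm1 ⟨β, hβ⟩)).2 ((tanh_le_iff hd β).2 hle)

end Vale.Agent.P161S
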